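import Mathlib

/-!
P129, part H4 (abstract recursion): an infinite sequence of nodes all of whose initial parts
satisfy an invariant, with prescribed side data at every step.
-/

namespace Vale.Agent.P129.H50

/-- Dependent recursion: if every initial part satisfying the invariant can be extended by one
term, there is an infinite sequence all of whose initial parts satisfy the invariant. -/
theorem exists_seq_of_step {N S : Type*} (Inv : ℕ → (ℕ → N) → S → Prop)
    (hcongr : ∀ n Φ Ψ s, (∀ j < n, Φ j = Ψ j) → Inv n Φ s → Inv n Ψ s)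
    (Φ₀ : ℕ → N) (s₀ : S) (h₀ : Inv 0 Φ₀ s₀)
    (Step : ℕ → S → N → S → Prop)
    (h : ∀ n Φ s, Inv n Φ s → ∃ x s', Step n s x s' ∧ Inv (n + 1) (Function.update Φ n x) s') :
    ∃ (Φ : ℕ → N) (st : ℕ → S), st 0 = s₀ ∧ (∀ k, Inv k Φ (st k)) ∧
      ∀ k, Step k (st k) (Φ k) (st (k + 1)) := by
  classical
  let T := {q : ℕ × (ℕ → N) × S // Inv q.1 q.2.1 q.2.2}
  have h' : ∀ q : T, ∃ x : N, ∃ s' : S, Step q.1.1 q.1.2.2 x s' ∧
      Inv (q.1.1 + 1) (Function.update q.1.2.1 q.1.1 x) s' := fun q => h _ _ _ q.2
  choose x s' hx hA using h'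
  let next : T → T := fun q => ⟨(q.1.1 + 1, Function.update q.1.2.1 q.1.1 (x q), s' q), hA q⟩
  let seq : ℕ → T := fun k => Nat.rec ⟨(0, Φ₀, s₀), h₀⟩ (fun _ q => next q) k
  have hseq : ∀ k, seq (k + 1) = next (seq k) := fun k => rfl
  have hn : ∀ k, (seq k).1.1 = k := by
    intro k
    induction k with
    | zero => rfl
    | succ k ih =>
      rw [hseq]
      change (seq k).1.1 + 1 = k + 1
      rw [ih]
  have hag : ∀ k, ∀ j < k, (seq k).1.2.1 j = x (seq j) := by
    intro k
    induction k with
    | zero => intro j hj; omega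
    | succ k ih =>
      intro j hj
      rw [hseq]
      change Function.update (seq k).1.2.1 (seq k).1.1 (x (seq k)) j = x (seq j)
      rw [hn k]
      by_cases hjk : j = k
      · subst hjk
        simp
      · rw [Function.update_of_ne hjk]
        exact ih j (by omega)
  refine ⟨fun k => x (seq k), fun k => (seq k).1.2.2, rfl, ?_, ?_⟩
  · intro k
    have := (seq k).2
    rw [hn k] at this
    exact hcongr k _ _ _ (fun j hj => hag k j hj) this
  · intro k
    have := hx (seq k)
    rw [hn k] at this
    exact this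

end Vale.Agent.P129.H50
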