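import Vale.Agent.P129.H448.Defs
import Vale.Agent.P129.H50.Rec

/-!
P129, part H4: from exact pairs to an infinite special sequence.
-/

open Finset

namespace Vale.Agent.P129.H50

open H448

/-! ### Congruence and extension -/

theorem special_congr {A : Set Fn} {Φ Ψ : ℕ → Node} {n : ℕ} (h : ∀ j < n, Φ j = Ψ j)
    (hΦ : IsSpecial A Φ n) : IsSpecial A Ψ n where
  cod := hΦ.cod.congr h
  wtd k hk := by rw [← h k hk]; exact hΦ.wtd k hk

theorem special_extend {A : Set Fn} {Φ : ℕ → Node} {n : ℕ} (h : IsSpecial A Φ n) {f : Fn}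
    (hf : f ∈ Wtd A (ell (H853.sigma (H853.code F Φ n)))) (hne : f ≠ 0)
    (hs : ∀ j < n, SLt (Φ j).φ.support f.support) :
    ∃ p₀ : ℕ, ∀ p, p₀ ≤ p →
      IsSpecial A (Function.update Φ n ⟨f, H853.sigma (H853.code F Φ n), p⟩) (n + 1) := by
  obtain ⟨p₀, -, hp₀⟩ := H853.exists_extend F_coherent h.cod hne
    (fun i hi ξ hξ η hη => hs i hi ξ hξ η hη) 0
  refine ⟨p₀, fun p hp => ⟨hp₀ p hp, fun k hk => ?_⟩⟩
  rcases (Nat.lt_succ_iff.1 hk).eq_or_lt with rfl | hk
  · rw [Function.update_self]; exact hf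
  · rw [Function.update_of_ne hk.ne]; exact h.wtd k hk

theorem special_zero (A : Set Fn) (Φ : ℕ → Node) : IsSpecial A Φ 0 :=
  ⟨fun j hj => absurd hj (Nat.not_lt_zero j), fun k hk => absurd hk (Nat.not_lt_zero k)⟩

/-- different levels at position `i` make the sequences almost disjoint -/
theorem almostDisj_of_ne {Φ Ψ : ℕ → Node} (hΦ : IsInf Φ) (hΨ : IsInf Ψ) {i : ℕ}
    (hp : (Φ i).p ≠ (Ψ i).p) : AlmostDisj Φ Ψ := by
  refine ((Finset.range (i + 1)).image fun k => (Φ k).w).finite_toSet.subset ?_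
  rintro w ⟨⟨k, hk⟩, ⟨k', hk'⟩⟩
  rw [Finset.coe_image, Set.mem_image]
  refine ⟨k, ?_, hk⟩
  rw [Finset.coe_range, Set.mem_Iio]
  by_contra hcon
  exact (hΦ (k + 1)).cod.w_ne (hΨ (k' + 1)).cod hp (Nat.lt_succ_self k) (Nat.lt_succ_self k')
    (by omega) (hk.trans hk'.symm)

/-! ### The exact pairs -/

/-- Exact pairs of every weight, arbitrarily far in the block sequence `h`. -/
def PairSupply (h : ℕ → Vec) (C : ℝ) : Prop :=
  ∀ w k₀ : ℕ, ∃ (u : Vec) (φ : Fn), u ∈ Submodule.span ℝ (h '' {k | k₀ ≤ k}) ∧ nrm u ≤ C ∧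
    φ ∈ Wtd K (ell w) ∧ ap φ u = 1 ∧ (φ.support : Set W) ⊆ ran u.support

theorem ap_eq_zero_of {φ : Fn} {u : Vec} (h : ∀ a ∈ u.support, φ a = 0) : ap φ u = 0 := by
  unfold ap pr
  rw [Finsupp.linearCombination_apply, Finsupp.sum]
  refine Finset.sum_eq_zero fun a ha => ?_
  simp [toR, h a ha]

theorem ne_zero_of_ap {φ : Fn} {u : Vec} (h : ap φ u = 1) : φ ≠ 0 := by
  rintro rfl
  rw [ap_eq_zero_of fun a _ => rfl] at h
  exact zero_ne_one h

/-- the coordinates of a vector in the span of the `h k`, `k ≥ k₀` -/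
theorem mem_support_of_span {h : ℕ → Vec} {S : Set ℕ} {u : Vec}
    (hu : u ∈ Submodule.span ℝ (h '' S)) : ∀ a ∈ u.support, ∃ k ∈ S, a ∈ (h k).support := by
  classical
  induction hu using Submodule.span_induction with
  | mem x hx =>
    obtain ⟨k, hk, rfl⟩ := hx
    exact fun a ha => ⟨k, hk, ha⟩
  | zero => intro a ha; simp at ha
  | add x y _ _ hx hy =>
    intro a ha
    rcases Finset.mem_union.1 (Finsupp.support_add ha) with h1 | h1
    · exact hx a h1
    · exact hy a h1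
  | smul c x _ hx =>
    intro a ha
    exact hx a (Finsupp.support_smul ha)

/-- A finite set of coordinates below `l` is below the tail of the block sequence. -/
theorem exists_tail {l : W} {h : ℕ → Vec} (hb : IsBlock l h) (S : Finset W)
    (hS : ∀ a ∈ S, a < l) : ∃ k₀, ∀ k, k₀ ≤ k → ∀ a ∈ S, ∀ b ∈ (h k).support, a < b := by
  classical
  have h1 : ∀ a : W, ∃ k, a < l → ∀ b ∈ (h k).support, a < b := by
    intro a
    by_cases ha : a < l
    · obtain ⟨k, hk⟩ := hb.cof a ha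
      exact ⟨k, fun _ => hk⟩
    · exact ⟨0, fun h => absurd h ha⟩
  choose g hg using h1
  refine ⟨S.sup g, fun k hk a ha b hbk => ?_⟩
  have h2 : g a ≤ k := (Finset.le_sup (f := g) ha).trans hk
  rcases h2.eq_or_lt with h3 | h3
  · exact hg a (hS a ha) b (h3 ▸ hbk)
  · obtain ⟨c, hc⟩ := Finsupp.support_nonempty_iff.2 (hb.ne (g a))
    exact (hg a (hS a ha) c hc).trans (hb.succ _ _ h3 c hc b hbk)

theorem ran_lt {S : Finset W} {l : W} (h : ∀ a ∈ S, a < l) : ∀ a ∈ ran S, a < l := by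
  rintro a ⟨b, hb, c, hc, h1, h2⟩
  exact h2.trans_lt (h c hc)

/-- **H4**: the infinite special sequence. -/
theorem supply_of_pairs {l : W} {h : ℕ → Vec} (hb : IsBlock l h) {C : ℝ} (hP : PairSupply h C)
    (B : ℕ → ℕ → Node) (hB : ∀ i, IsInf (B i)) :
    ∃ Φ : ℕ → Node, IsInf Φ ∧ Cofinal Φ l ∧ (∀ i, AlmostDisj Φ (B i)) ∧ ∃ u : ℕ → Vec,
      ∀ i, u i ∈ Submodule.span ℝ (h '' {k | i ≤ k}) ∧ nrm (u i) ≤ C ∧ pr (br Φ) (u i) = 1 ∧
        ((Φ i).φ.support : Set W) ⊆ ran (u i).support ∧ ap (Φ i).φ (u i) = 1 := by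
  classical
  -- the state: the tail of `h` still available and the last vector
  obtain ⟨Φ, st, -, hInv, hStep⟩ := exists_seq_of_step (N := Node) (S := ℕ × Vec)
    (fun n Φ s => IsSpecial K Φ n ∧ n ≤ s.1 ∧
      ∀ j < n, ∀ a ∈ (Φ j).φ.support, ∀ k, s.1 ≤ k → ∀ b ∈ (h k).support, a < b)
    (by
      rintro n Φ Ψ s hag ⟨h1, h2, h3⟩
      refine ⟨special_congr hag h1, h2, fun j hj => ?_⟩
      rw [← hag j hj]
      exact h3 j hj)
    (fun _ => (⟨0, 0, 0⟩ : H853.Nd W)) (0, 0) ⟨special_zero _ _, le_rfl, fun j hj => by omega⟩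
    (fun n s x s' => s.1 < s'.1 ∧ n ≤ s.1 ∧
      s'.2 ∈ Submodule.span ℝ (h '' {k | s.1 ≤ k}) ∧ nrm s'.2 ≤ C ∧
      (x.φ.support : Set W) ⊆ ran s'.2.support ∧ ap x.φ s'.2 = 1 ∧
      (∀ a ∈ s'.2.support, ∀ k, s'.1 ≤ k → ∀ b ∈ (h k).support, a < b) ∧
      ∀ i ≤ n, (B i n).p < x.p)
    (by
      rintro n Φ ⟨k₀, u₀⟩ ⟨h1, h2, h3⟩
      simp only at h2 h3
      obtain ⟨u, φ, hu, huC, hφ, hap, hsub⟩ := hP (H853.sigma (H853.code F Φ n)) k₀
      have hul : ∀ a ∈ u.support, a < l := by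
        intro a ha
        obtain ⟨k, -, hk⟩ := mem_support_of_span hu a ha
        exact hb.lt k a hk
      have hφl : ∀ a ∈ φ.support, a < l := fun a ha => ran_lt hul a (hsub ha)
      obtain ⟨k₁, hk₁⟩ := exists_tail hb (u.support ∪ φ.support) (by
        intro a ha
        rcases Finset.mem_union.1 ha with h | h
        · exact hul a h
        · exact hφl a h)
      have hslt : ∀ j < n, SLt (Φ j).φ.support φ.support := by
        intro j hj a ha b hbφ
        obtain ⟨c, hc, d, -, hcb, -⟩ := hsub hbφ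
        obtain ⟨k, hk, hck⟩ := mem_support_of_span hu c hc
        exact (h3 j hj a ha k hk c hck).trans_le hcb
      obtain ⟨p₀, hp₀⟩ := special_extend h1 hφ (ne_zero_of_ap hap) hslt
      let p := max p₀ ((range (n + 1)).sup fun i => (B i n).p + 1)
      refine ⟨⟨φ, H853.sigma (H853.code F Φ n), p⟩, (max k₁ (k₀ + 1), u), ⟨?_, h2, hu, huC, hsub, hap, ?_, ?_⟩,
        hp₀ p (le_max_left _ _), ?_, ?_⟩
      · exact (Nat.lt_succ_self k₀).trans_le (le_max_right _ _)
      · intro a ha k hk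
        exact hk₁ k ((le_max_left _ _).trans hk) a (Finset.mem_union_left _ ha)
      · intro i hi
        have : (B i n).p + 1 ≤ (range (n + 1)).sup fun i => (B i n).p + 1 :=
          Finset.le_sup (f := fun i => (B i n).p + 1) (mem_range.2 (by omega))
        exact this.trans (le_max_right _ _)
      · exact (Nat.succ_le_succ h2).trans (le_max_right _ _)
      · intro j hj
        rcases (Nat.lt_succ_iff.1 hj).eq_or_lt with rfl | hj
        · rw [Function.update_self]
          intro a ha k hk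
          exact hk₁ k ((le_max_left _ _).trans hk) a (Finset.mem_union_right _ ha)
        · rw [Function.update_of_ne hj.ne]
          intro a ha k hk b hbk
          exact h3 j hj a ha k ((Nat.le_succ k₀).trans ((le_max_right _ _).trans hk)) b hbk)
  have hinf : IsInf Φ := fun n => (hInv n).1
  -- the vectors
  have hu : ∀ i, (st (i + 1)).2 ∈ Submodule.span ℝ (h '' {k | (st i).1 ≤ k}) :=
    fun i => (hStep i).2.2.1
  have hsub : ∀ i, ((Φ i).φ.support : Set W) ⊆ ran (st (i + 1)).2.support :=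
    fun i => (hStep i).2.2.2.2.1
  have hstm : StrictMono fun i => (st i).1 := strictMono_nat_of_lt_succ fun i => (hStep i).1
  have hle : ∀ i, i ≤ (st i).1 := fun i => (hStep i).2.1
  -- the ranges are successive
  have hsep : ∀ i j, i < j → ∀ a ∈ ran (st (i + 1)).2.support,
      ∀ b ∈ ran (st (j + 1)).2.support, a < b := by
    rintro i j hij a ⟨a₁, -, a₂, ha₂, -, haa⟩ b ⟨b₁, hb₁, b₂, -, hbb, -⟩
    obtain ⟨k, hk, hbk⟩ := mem_support_of_span (hu j) b₁ hb₁
    have h1 : (st (i + 1)).1 ≤ k := (hstm.monotone (Nat.succ_le_of_lt hij)).trans hk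
    exact (haa.trans_lt ((hStep i).2.2.2.2.2.2.1 a₂ ha₂ k h1 b₁ hbk)).trans_le hbb
  have hmemran : ∀ (S : Finset W), ∀ a ∈ S, a ∈ ran S := fun S a ha =>
    ⟨a, ha, a, ha, le_rfl, le_rfl⟩
  refine ⟨Φ, hinf, ⟨?_, ?_⟩, ?_, fun i => (st (i + 1)).2, fun i => ⟨?_, (hStep i).2.2.2.1, ?_,
    hsub i, (hStep i).2.2.2.2.2.1⟩⟩
  · intro k a ha
    refine ran_lt (S := (st (k + 1)).2.support) ?_ a (hsub k ha)
    intro b hb'
    obtain ⟨k', -, hk'⟩ := mem_support_of_span (hu k) b hb'
    exact hb.lt k' b hk'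
  · intro a ha
    obtain ⟨k₀, hk₀⟩ := exists_tail hb {a} (by simpa using ha)
    refine ⟨k₀, fun b hbk => ?_⟩
    obtain ⟨c, hc, d, -, hcb, -⟩ := hsub k₀ hbk
    obtain ⟨k, hk, hck⟩ := mem_support_of_span (hu k₀) c hc
    exact (hk₀ k ((hle k₀).trans hk) a (Finset.mem_singleton_self a) c hck).trans_le hcb
  · intro i
    refine almostDisj_of_ne hinf (hB i) (i := i) ?_
    exact ((hStep i).2.2.2.2.2.2.2 i le_rfl).ne'
  · refine Submodule.span_mono (Set.image_mono fun k hk => ?_) (hu i)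
    exact (hle i).trans hk
  · -- the value of the branch
    have hval : ∀ a ∈ (st (i + 1)).2.support, br Φ a = toR (Φ i).φ a := by
      intro a ha
      unfold br tl
      rw [finsum_eq_single _ i]
      · simp [toR]
      · intro k hki
        simp only [Nat.zero_le, if_true]
        by_contra hne
        have hmem : a ∈ (Φ k).φ.support := by
          rw [Finsupp.mem_support_iff]
          intro h0
          exact hne (by rw [h0]; simp)
        have h1 := hsub k hmem
        rcases lt_or_gt_of_ne hki with hlt | hlt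
        · exact lt_irrefl _ (hsep k i hlt a h1 a (hmemran _ a ha))
        · exact lt_irrefl _ (hsep i k hlt a (hmemran _ a ha) a h1)
    have h1 : pr (br Φ) (st (i + 1)).2 = ap (Φ i).φ (st (i + 1)).2 := by
      unfold ap pr
      rw [Finsupp.linearCombination_apply, Finsupp.linearCombination_apply, Finsupp.sum,
        Finsupp.sum]
      exact Finset.sum_congr rfl fun a ha => by rw [hval a ha]
    rw [h1]
    exact (hStep i).2.2.2.2.2.1

end Vale.Agent.P129.H50
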